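import Vale.Agent.P076.Main

namespace Vale.Agent.Results.P076.Endpoint

open MeasureTheory Filter Topology Vale.Agent.P076

theorem result (n : ℕ) (hn : 1 ≤ n) (q : ℝ) (hq : 2 * ((n : ℝ) + 1) / n < q) (w : ℝ → ℝ)
    (hwm : Measurable w) (hw0 : ∀ r, 0 ≤ w r) (hw : Tendsto w atTop (𝓝 0)) :
    ∃ g : (Fin n → ℝ) → ℂ, MemLp g 2 volume ∧
      Integrable (fun ξ => wt ξ * w (√(nsq ξ)) * ‖g ξ‖ ^ 2) ∧
      (∀ m, IntegrableOn (fun ξ => wt ξ * ‖g ξ‖ ^ 2) (shell n m)) ∧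
      Summable (fun m => (∫ ξ in shell n m, wt ξ * ‖g ξ‖ ^ 2) ^ (q / 2)) ∧
      ∀ x : Fin n → ℝ, (∀ i, 0 ≤ x i ∧ x i ≤ 1) →
        (∀ t, 0 < t → ∃ u, IsEvol g t x u) ∧ ∀ c, ¬ ConvTo g x c := by
  obtain ⟨d, rfl⟩ : ∃ d, n = d + 1 := ⟨n - 1, by omega⟩
  exact main d q hq w hwm hw0 hw

end Vale.Agent.Results.P076.Endpoint
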